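import Vale.Agent.P082.Main

/-- The Kadison–Ringrose conjecture: every bounded Hochschild `k`-cocycle (`k = n + 1 ≥ 1`) of a
von Neumann algebra with values in itself is the coboundary of a bounded `(k-1)`-cochain. -/
theorem Vale.Agent.Results.P082.KadisonRingrose.result {H : Type*} [NormedAddCommGroup H]
    [InnerProductSpace ℂ H] [CompleteSpace H] (M : VonNeumannAlgebra H) (n : ℕ)
    (f : ContinuousMultilinearMap ℂ (fun _ : Fin (n + 1) => M.toStarSubalgebra)
      M.toStarSubalgebra)
    (hf : ∀ a, Vale.Agent.P082.hochD f a = 0) :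
    ∃ g : ContinuousMultilinearMap ℂ (fun _ : Fin n => M.toStarSubalgebra) M.toStarSubalgebra,
      ∀ a, f a = Vale.Agent.P082.hochD g a :=
  Vale.Agent.P082.main_vn M n f hf
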